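import Crest.Agent.S0166Lib.Defs
import Crest.Agent.PotLib.Midpoint
import Crest.Agent.AsyLib.Moduli
import Crest.Agent.AsyLib.Reflexive

/-!
Properties of the blocks: they sit inside the global model space (hence have `MP`), and they are
linearly homeomorphic to a Hilbert space (hence are reflexive).
-/

set_option autoImplicit false

namespace Crest.Agent.S0166Lib

open scoped ENNReal
open Crest.AnalysisR Crest.AnalysisR.TreePotential Crest.Agent.AsyLib

theorem blk_le (n : ℕ) : blk n ≤ modelSpace PotentialModel.global :=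
  Submodule.topologicalClosure_mono (Submodule.span_mono (Set.image_subset_range _ _))

theorem MP_blk (n : ℕ) : MP ↥(blk n) := by
  let ι : ↥(blk n) →ₗᵢ[ℝ] ↥(modelSpace PotentialModel.global) :=
    { toLinearMap := Submodule.inclusion (blk_le n)
      norm_map' := fun x => rfl }
  exact MP.of_isometry ι (Crest.Agent.PotLib.MP_model PotentialModel.global)

/-! ### Reflexivity of the blocks -/

/-- Index type of block `n`: the vertices of depth at most `n + 1`. -/
abbrev BIdx (n : ℕ) : Type := {s : List ℕ // s.length ≤ n + 1}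

/-- The global tests. -/
abbrev GT : Type := PotentialTest PotentialModel.global

/-- The Hilbert space `ℓ²` over the vertices of block `n`. -/
abbrev BH (n : ℕ) : Type := ↥(lp (fun _ : BIdx n => ℝ) 2)

theorem block_test_sq (f : GT) (A : Finset (List ℕ)) : ∑ u ∈ A, f.1 u ^ 2 ≤ 1 := f.2.2 A

theorem block_rpow_two (x : ℝ) : ‖x‖ ^ (2 : ℝ≥0∞).toReal = x ^ 2 := by
  rw [ENNReal.toReal_ofNat, Real.rpow_two, Real.norm_eq_abs, sq_abs]

theorem block_fvec_sum (n : ℕ) (f : GT) (s : Finset (BIdx n)) :
    ∑ i ∈ s, ‖f.1 i.1‖ ^ (2 : ℝ≥0∞).toReal ≤ 1 := by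
  have h := block_test_sq f (s.map (Function.Embedding.subtype _))
  rw [Finset.sum_map] at h
  simp only [block_rpow_two]
  simpa using h

/-- Restriction of a global test to the vertices of block `n`, as an `ℓ²` vector. -/
noncomputable def block_fvec (n : ℕ) (f : GT) : BH n :=
  ⟨fun s => f.1 s.1, memℓp_gen' (C := 1) (block_fvec_sum n f)⟩

theorem block_fvec_apply (n : ℕ) (f : GT) (s : BIdx n) : block_fvec n f s = f.1 s.1 := rfl

theorem block_fvec_norm_le (n : ℕ) (f : GT) : ‖block_fvec n f‖ ≤ 1 := by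
  refine lp.norm_le_of_forall_sum_le (by norm_num) zero_le_one (fun s => ?_)
  have h := block_fvec_sum n f s
  simpa [block_fvec_apply] using h

theorem block_inner_le (n : ℕ) (f : GT) (a : BH n) : ‖inner ℝ (block_fvec n f) a‖ ≤ ‖a‖ := by
  calc ‖inner ℝ (block_fvec n f) a‖ ≤ ‖block_fvec n f‖ * ‖a‖ := norm_inner_le_norm _ _
    _ ≤ 1 * ‖a‖ := by gcongr; exact block_fvec_norm_le n f
    _ = ‖a‖ := one_mul _

/-- The synthesis map of block `n` as a function. -/
noncomputable def block_phiFun (n : ℕ) (a : BH n) : lp (fun _ : GT => ℝ) ⊤ :=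
  ⟨fun f => inner ℝ (block_fvec n f) a, memℓp_infty ⟨‖a‖, by
    rintro _ ⟨f, rfl⟩
    exact block_inner_le n f a⟩⟩

theorem block_phiFun_apply (n : ℕ) (a : BH n) (f : GT) :
    block_phiFun n a f = inner ℝ (block_fvec n f) a := rfl

/-- The synthesis map of block `n`: `a ↦ (f ↦ ∑ₛ f s * a s)`. -/
noncomputable def block_phi (n : ℕ) : BH n →L[ℝ] lp (fun _ : GT => ℝ) ⊤ :=
  LinearMap.mkContinuous
    { toFun := block_phiFun n
      map_add' := fun a b => by
        ext f
        simp only [lp.coeFn_add, Pi.add_apply, block_phiFun_apply, inner_add_right]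
      map_smul' := fun c a => by
        ext f
        simp only [lp.coeFn_smul, Pi.smul_apply, block_phiFun_apply, inner_smul_right,
          RingHom.id_apply, smul_eq_mul] }
    1 (fun a => by
      rw [one_mul]
      exact lp.norm_le_of_forall_le (norm_nonneg _) (fun f => block_inner_le n f a))

theorem block_phi_apply (n : ℕ) (a : BH n) (f : GT) :
    block_phi n a f = inner ℝ (block_fvec n f) a := rfl

/-! Lower bound: the test `a / ((n + 2) ‖a‖)`. -/

/-- The test used for the lower bound of the synthesis map. -/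
noncomputable def block_lowFun (n : ℕ) (a : BH n) : List ℕ → ℝ :=
  fun u => if h : u.length ≤ n + 1 then a ⟨u, h⟩ / (((n : ℝ) + 2) * ‖a‖) else 0

theorem block_lowFun_of_le (n : ℕ) (a : BH n) (x : BIdx n) :
    block_lowFun n a x.1 = a x / (((n : ℝ) + 2) * ‖a‖) := by
  unfold block_lowFun
  rw [dif_pos x.2]

theorem block_lowFun_of_not_le (n : ℕ) (a : BH n) (u : List ℕ) (h : ¬ u.length ≤ n + 1) :
    block_lowFun n a u = 0 := dif_neg h

theorem block_lowFun_abs_le (n : ℕ) (a : BH n) (ha : a ≠ 0) (u : List ℕ) :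
    |block_lowFun n a u| ≤ 1 / ((n : ℝ) + 2) := by
  have hN : (0 : ℝ) < (n : ℝ) + 2 := by positivity
  by_cases h : u.length ≤ n + 1
  · have h1 : ‖a ⟨u, h⟩‖ ≤ ‖a‖ := lp.norm_apply_le_norm (by norm_num) a _
    have h2 : 0 < ‖a‖ := norm_pos_iff.2 ha
    have h3 := block_lowFun_of_le n a ⟨u, h⟩
    simp only at h3
    rw [h3, abs_div, abs_of_pos (by positivity : (0 : ℝ) < ((n : ℝ) + 2) * ‖a‖),
      div_le_div_iff₀ (by positivity) hN]
    rw [Real.norm_eq_abs] at h1
    nlinarith [abs_nonneg (a ⟨u, h⟩)]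
  · rw [block_lowFun_of_not_le n a u h, abs_zero]
    positivity

theorem block_lowFun_pot (n : ℕ) (a : BH n) (ha : a ≠ 0) (r : List ℕ) :
    |pathPotential (block_lowFun n a) r| ≤
      min ((r.length : ℝ) + 1) ((n : ℝ) + 2) / ((n : ℝ) + 2) := by
  have hN : (0 : ℝ) < (n : ℝ) + 2 := by positivity
  induction r with
  | nil =>
    have h1 := block_lowFun_abs_le n a ha []
    have h2 : min (((([] : List ℕ).length : ℕ) : ℝ) + 1) ((n : ℝ) + 2) = 1 := by
      rw [List.length_nil, Nat.cast_zero, zero_add]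
      exact min_eq_left (by linarith [(Nat.cast_nonneg n : (0 : ℝ) ≤ n)])
    rw [h2]
    simpa [pathPotential] using h1
  | cons x v ih =>
    simp only [pathPotential, List.length_cons]
    by_cases h : (x :: v).length ≤ n + 1
    · have hlen : ((v.length : ℝ)) + 1 ≤ (n : ℝ) + 1 := by
        have : v.length + 1 ≤ n + 1 := by simpa using h
        exact_mod_cast this
      have h1 := block_lowFun_abs_le n a ha (x :: v)
      have h2 : min ((v.length : ℝ) + 1) ((n : ℝ) + 2) = (v.length : ℝ) + 1 :=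
        min_eq_left (by linarith)
      have h3 : min (((v.length + 1 : ℕ) : ℝ) + 1) ((n : ℝ) + 2) = (v.length : ℝ) + 2 := by
        push_cast
        rw [min_eq_left (by linarith)]
        ring
      rw [h2] at ih
      rw [h3]
      have h4 : |pathPotential (block_lowFun n a) v + block_lowFun n a (x :: v)| ≤
          |pathPotential (block_lowFun n a) v| + |block_lowFun n a (x :: v)| := abs_add_le _ _
      have h5 : ((v.length : ℝ) + 2) / ((n : ℝ) + 2) =
          ((v.length : ℝ) + 1) / ((n : ℝ) + 2) + 1 / ((n : ℝ) + 2) := by ring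
      rw [h5]
      linarith
    · have hlen : (n : ℝ) + 1 < (v.length : ℝ) + 1 := by
        have : n + 1 < v.length + 1 := by simpa using h
        exact_mod_cast this
      rw [block_lowFun_of_not_le n a (x :: v) h, add_zero]
      have h3 : min (((v.length + 1 : ℕ) : ℝ) + 1) ((n : ℝ) + 2) = (n : ℝ) + 2 := by
        push_cast
        exact min_eq_right (by linarith)
      rw [h3, div_self hN.ne']
      refine ih.trans ?_
      rw [div_le_one hN]
      exact min_le_right _ _

theorem block_lowFun_sq (n : ℕ) (a : BH n) (ha : a ≠ 0) (A : Finset (List ℕ)) :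
    ∑ u ∈ A, block_lowFun n a u ^ 2 ≤ 1 := by
  classical
  have hN : (0 : ℝ) < (n : ℝ) + 2 := by positivity
  have hpos : 0 < ‖a‖ := norm_pos_iff.2 ha
  have h1 : ∑ u ∈ A, block_lowFun n a u ^ 2 =
      ∑ u ∈ A.filter (fun u => u.length ≤ n + 1), block_lowFun n a u ^ 2 := by
    rw [Finset.sum_filter]
    refine Finset.sum_congr rfl (fun u _ => ?_)
    split_ifs with h
    · rfl
    · rw [block_lowFun_of_not_le n a u h]; simp
  rw [h1, ← Finset.sum_subtype_eq_sum_filter]
  have h2 : ∀ x : BIdx n, block_lowFun n a x.1 ^ 2 =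
      (a x) ^ 2 / (((n : ℝ) + 2) * ‖a‖) ^ 2 := by
    intro x
    rw [block_lowFun_of_le, div_pow]
  rw [Finset.sum_congr rfl (fun x _ => h2 x), ← Finset.sum_div]
  have h3 : ∑ x ∈ A.subtype (fun u => u.length ≤ n + 1), (a x) ^ 2 ≤ ‖a‖ ^ 2 := by
    have h := lp.sum_rpow_le_norm_rpow (by norm_num) a (A.subtype (fun u => u.length ≤ n + 1))
    simp only [block_rpow_two] at h
    rw [ENNReal.toReal_ofNat, Real.rpow_two] at h
    exact h
  rw [div_le_one (by positivity)]
  have h4 : ‖a‖ ^ 2 ≤ (((n : ℝ) + 2) * ‖a‖) ^ 2 := by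
    have : ‖a‖ ≤ ((n : ℝ) + 2) * ‖a‖ := by nlinarith [(Nat.cast_nonneg n : (0 : ℝ) ≤ n)]
    exact pow_le_pow_left₀ hpos.le this 2
  linarith

/-- The lower-bound test as a global test. -/
noncomputable def block_lowTest (n : ℕ) (a : BH n) (ha : a ≠ 0) : GT :=
  ⟨block_lowFun n a, ⟨fun s => by
    have hN : (0 : ℝ) < (n : ℝ) + 2 := by positivity
    refine (block_lowFun_pot n a ha s).trans ?_
    rw [div_le_one hN]
    exact min_le_right _ _, fun A => block_lowFun_sq n a ha A⟩⟩

theorem block_fvec_lowTest (n : ℕ) (a : BH n) (ha : a ≠ 0) :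
    block_fvec n (block_lowTest n a ha) = (1 / (((n : ℝ) + 2) * ‖a‖)) • a := by
  ext x
  rw [block_fvec_apply, lp.coeFn_smul, Pi.smul_apply, smul_eq_mul]
  show block_lowFun n a x.1 = _
  rw [block_lowFun_of_le]
  ring

theorem block_phi_lower (n : ℕ) (a : BH n) : ‖a‖ ≤ ((n : ℝ) + 2) * ‖block_phi n a‖ := by
  have hN : (0 : ℝ) < (n : ℝ) + 2 := by positivity
  by_cases ha : a = 0
  · subst ha; simp
  have hpos : 0 < ‖a‖ := norm_pos_iff.2 ha
  have h1 : ‖block_phi n a (block_lowTest n a ha)‖ ≤ ‖block_phi n a‖ :=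
    lp.norm_apply_le_norm (by simp) _ _
  rw [block_phi_apply, block_fvec_lowTest, real_inner_smul_left, real_inner_self_eq_norm_sq,
    Real.norm_eq_abs] at h1
  have h2 : 1 / (((n : ℝ) + 2) * ‖a‖) * ‖a‖ ^ 2 = ‖a‖ / ((n : ℝ) + 2) := by
    field_simp
  rw [h2, abs_of_pos (by positivity)] at h1
  rw [div_le_iff₀ hN] at h1
  linarith

/-! Range of the synthesis map. -/

theorem block_phi_single (n : ℕ) (x : BIdx n) (c : ℝ) :
    block_phi n (lp.single 2 x c) = c • coordVector PotentialModel.global x.1 := by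
  ext f
  rw [block_phi_apply, lp.inner_single_right, lp.coeFn_smul, Pi.smul_apply, block_fvec_apply]
  show inner ℝ (f.1 x.1) c = c * f.1 x.1
  simp

theorem block_phi_mem (n : ℕ) (a : BH n) : block_phi n a ∈ blk n := by
  have h1 : HasSum (fun x : BIdx n => lp.single 2 x (a x)) a :=
    lp.hasSum_single (by norm_num) a
  have h2 := (block_phi n).hasSum h1
  rw [← h2.tsum_eq]
  refine tsum_mem (Submodule.isClosed_topologicalClosure _) (fun x => ?_)
  rw [block_phi_single]
  exact Submodule.smul_mem _ _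
    (Submodule.le_topologicalClosure _ (Submodule.subset_span ⟨x.1, x.2, rfl⟩))

theorem block_phi_antilipschitz (n : ℕ) :
    AntilipschitzWith ⟨(n : ℝ) + 2, by positivity⟩ (block_phi n) :=
  AddMonoidHomClass.antilipschitz_of_bound (block_phi n) (fun a => block_phi_lower n a)

theorem block_le_range (n : ℕ) (y : lp (fun _ : GT => ℝ) ⊤) (hy : y ∈ blk n) :
    ∃ a : BH n, block_phi n a = y := by
  have hcl : IsClosed ((LinearMap.range (block_phi n).toLinearMap :
      Submodule ℝ (lp (fun _ : GT => ℝ) ⊤)) : Set (lp (fun _ : GT => ℝ) ⊤)) := by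
    have h := (block_phi_antilipschitz n).isClosed_range (block_phi n).uniformContinuous
    convert h using 1
    ext z
    simp
  have hle : blk n ≤ LinearMap.range (block_phi n).toLinearMap := by
    refine Submodule.topologicalClosure_minimal _ (Submodule.span_le.2 ?_) hcl
    rintro _ ⟨s, hs, rfl⟩
    refine ⟨lp.single 2 ⟨s, hs⟩ 1, ?_⟩
    have h := block_phi_single n ⟨s, hs⟩ 1
    rw [one_smul] at h
    exact h
  obtain ⟨a, ha⟩ := hle hy
  exact ⟨a, ha⟩

/-- The synthesis map with codomain the block. -/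
noncomputable def block_phi' (n : ℕ) : BH n →L[ℝ] ↥(blk n) :=
  (block_phi n).codRestrict (blk n) (block_phi_mem n)

theorem block_phi'_coe (n : ℕ) (a : BH n) :
    ((block_phi' n a : ↥(blk n)) : lp (fun _ : GT => ℝ) ⊤) = block_phi n a := rfl

/-- Each block is reflexive (it is isomorphic to `ℓ₂` over its vertices, with constant
`n + 2`). -/
theorem blk_reflexive (n : ℕ) :
    Function.Surjective (NormedSpace.inclusionInDoubleDual ℝ ↥(blk n)) := by
  have hinj : Function.Injective (block_phi' n) := by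
    intro a b hab
    have h : block_phi n a = block_phi n b := by
      rw [← block_phi'_coe, ← block_phi'_coe, hab]
    exact (block_phi_antilipschitz n).injective h
  have hsurj : Function.Surjective (block_phi' n) := by
    intro y
    obtain ⟨a, ha⟩ := block_le_range n y.1 y.2
    exact ⟨a, Subtype.ext ha⟩
  have e : BH n ≃L[ℝ] ↥(blk n) :=
    ContinuousLinearEquiv.ofBijective (block_phi' n) (LinearMap.ker_eq_bot.2 hinj)
      (LinearMap.range_eq_top.2 hsurj)
  exact reflexive_of_equiv_hilbert e.symm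

end Crest.Agent.S0166Lib
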