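import Crest.Agent.S0166Lib.Defs
import Crest.Agent.AsyLib.Cof
import Crest.Agent.AsyLib.NoAUC
import Crest.Agent.PotLib.Chain

/-!
The witness is separable and infinite-dimensional, and admits no equivalent asymptotically
uniformly convex norm (chains of length `n` in block `n`).
-/

set_option autoImplicit false

namespace Crest.Agent.S0166Lib

open scoped ENNReal
open Crest.AnalysisR Crest.AnalysisR.TreePotential Crest.Agent.AsyLib Crest.Agent.PotLib

/-- Coordinate vectors of vertices of depth at most `n + 1` lie in block `n`. -/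
theorem wit_coord_mem (n : ℕ) (s : List ℕ) (hs : s.length ≤ n + 1) :
    coordVector PotentialModel.global s ∈ blk n :=
  Submodule.le_topologicalClosure _ (Submodule.subset_span ⟨s, hs, rfl⟩)

/-- The coordinate vector of a vertex of depth at most `n + 1`, as an element of block `n`. -/
noncomputable def wit_cv (n : ℕ) (s : List ℕ) (hs : s.length ≤ n + 1) : ↥(blk n) :=
  ⟨coordVector PotentialModel.global s, wit_coord_mem n s hs⟩

/-- Chain sums of vertices of depth at most `n + 1` lie in block `n`. -/
theorem wit_chain_mem (n : ℕ) (r : List ℕ) (hr : r.length ≤ n + 1) :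
    ((chain PotentialModel.global r : ↥(modelSpace PotentialModel.global)) :
      lp (fun _ : PotentialTest PotentialModel.global => ℝ) ⊤) ∈ blk n := by
  induction r with
  | nil => exact wit_coord_mem n [] hr
  | cons a v ih =>
    have hv : v.length ≤ n + 1 := by
      simp only [List.length_cons] at hr
      omega
    exact (blk n).add_mem (ih hv) (wit_coord_mem n (a :: v) hr)

/-- The chain sum of a vertex of depth at most `n + 1`, as an element of block `n`. -/
noncomputable def wit_chain (n : ℕ) (r : List ℕ) (hr : r.length ≤ n + 1) : ↥(blk n) :=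
  ⟨_, wit_chain_mem n r hr⟩

theorem wit_norm_cv (n : ℕ) (s : List ℕ) (hs : s.length ≤ n + 1) :
    ‖wit_cv n s hs‖ = ‖cv PotentialModel.global s‖ := rfl

theorem wit_norm_chain (n : ℕ) (r : List ℕ) (hr : r.length ≤ n + 1) :
    ‖wit_chain n r hr‖ = ‖chain PotentialModel.global r‖ := rfl

theorem wit_chain_cons (n : ℕ) (a : ℕ) (r : List ℕ) (hr : (a :: r).length ≤ n + 1)
    (hr' : r.length ≤ n + 1) :
    wit_chain n (a :: r) hr = wit_chain n r hr' + wit_cv n (a :: r) hr := rfl

theorem wit_norm_single (n : ℕ) (a : ↥(blk n)) :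
    ‖(lp.single 2 n a : WitT)‖ = ‖a‖ :=
  lp.norm_single (E := fun n : ℕ => ↥(blk n)) (p := 2) two_pos n a

/-- The embedded siblings satisfy an upper `ℓ₂` estimate with constant `1`. -/
theorem wit_upperTwo (n : ℕ) (r : List ℕ) (hr : ∀ j : ℕ, (j :: r).length ≤ n + 1) :
    UpperTwo (fun j => (lp.single 2 n (wit_cv n (j :: r) (hr j)) : WitT)) 1 := by
  intro A c
  have h1 : (∑ j ∈ A, c j • (lp.single 2 n (wit_cv n (j :: r) (hr j)) : WitT)) =
      lp.single 2 n (∑ j ∈ A, c j • wit_cv n (j :: r) (hr j)) := by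
    have h := map_sum (lp.lsingle (𝕜 := ℝ) (E := fun n : ℕ => ↥(blk n)) 2 n)
      (fun j => c j • wit_cv n (j :: r) (hr j)) A
    rw [show lp.single 2 n (∑ j ∈ A, c j • wit_cv n (j :: r) (hr j)) =
      lp.lsingle (𝕜 := ℝ) (E := fun n : ℕ => ↥(blk n)) 2 n
        (∑ j ∈ A, c j • wit_cv n (j :: r) (hr j)) from rfl, h]
    apply Finset.sum_congr rfl
    intro j _
    rw [map_smul]
    rfl
  rw [h1, wit_norm_single]
  have h2 := upperTwo_siblings PotentialModel.global r A c
  have e1 : ((∑ j ∈ A, c j • wit_cv n (j :: r) (hr j) : ↥(blk n)) :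
      lp (fun _ : PotentialTest PotentialModel.global => ℝ) ⊤) =
      ∑ j ∈ A, c j • coordVector PotentialModel.global (j :: r) := by
    rw [Submodule.coe_sum]
    rfl
  have e2 : ((∑ j ∈ A, c j • cv PotentialModel.global (j :: r) :
      ↥(modelSpace PotentialModel.global)) :
      lp (fun _ : PotentialTest PotentialModel.global => ℝ) ⊤) =
      ∑ j ∈ A, c j • coordVector PotentialModel.global (j :: r) := by
    rw [Submodule.coe_sum]
    rfl
  have h3 : ‖∑ j ∈ A, c j • wit_cv n (j :: r) (hr j)‖ =
      ‖∑ j ∈ A, c j • cv PotentialModel.global (j :: r)‖ := by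
    have n1 : ‖∑ j ∈ A, c j • wit_cv n (j :: r) (hr j)‖ =
        ‖((∑ j ∈ A, c j • wit_cv n (j :: r) (hr j) : ↥(blk n)) :
          lp (fun _ : PotentialTest PotentialModel.global => ℝ) ⊤)‖ := rfl
    have n2 : ‖∑ j ∈ A, c j • cv PotentialModel.global (j :: r)‖ =
        ‖((∑ j ∈ A, c j • cv PotentialModel.global (j :: r) :
          ↥(modelSpace PotentialModel.global)) :
          lp (fun _ : PotentialTest PotentialModel.global => ℝ) ⊤)‖ := rfl
    rw [n1, n2, e1, e2]
  rw [h3]
  exact h2

theorem wit_not_finiteDimensional : ¬ FiniteDimensional ℝ WitT := by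
  have hr : ∀ j : ℕ, (j :: ([] : List ℕ)).length ≤ 0 + 1 := fun j => by simp
  refine not_finiteDimensional_of_upperTwo (wit_upperTwo 0 [] hr) one_pos (fun j => ?_)
  rw [wit_norm_single, wit_norm_cv]
  exact one_le_norm_cv PotentialModel.global [j] (by simp)

theorem wit_noAUC (N : WitT → ℝ)
    (hN : (∀ x y : WitT, N (x + y) ≤ N x + N y) ∧
      (∀ (a : ℝ) (x : WitT), N (a • x) = abs a * N x) ∧
      ∃ a b : ℝ, 0 < a ∧ ∀ x : WitT, a * ‖x‖ ≤ N x ∧ N x ≤ b * ‖x‖)
    (hAUC : ∀ t : ℝ, 0 < t → ∃ c : ℝ, 0 < c ∧ ∀ x : WitT, N x = 1 →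
      ∃ F : Set WitT, IsCofT F ∧ ∀ y ∈ F, N y = 1 → c ≤ N (x + t • y) - 1) :
    False := by
  refine noAUC_of_chains 1 1 one_pos
    (fun n k => {x : WitT | ∃ (r : List ℕ) (hr : r.length ≤ n + 1),
      r.length = k + 1 ∧ x = lp.single 2 n (wit_chain n r hr)}) ?_ ?_ ?_ N hN hAUC
  · intro n
    have h0 : ([0] : List ℕ).length ≤ n + 1 := by simp
    refine ⟨lp.single 2 n (wit_chain n [0] h0), ⟨[0], h0, by simp, rfl⟩, ?_⟩
    rw [wit_norm_single, wit_norm_chain]
    exact one_le_norm_chain PotentialModel.global [0] (by simp)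
  · rintro n k x ⟨r, hr, -, rfl⟩
    rw [wit_norm_single, wit_norm_chain]
    exact norm_chain_le PotentialModel.global r
  · rintro n k hkn x ⟨r, hr, hlen, rfl⟩ F hF ε hε
    have hr' : ∀ j : ℕ, (j :: r).length ≤ n + 1 := fun j => by
      simp only [List.length_cons]
      omega
    obtain ⟨n₀, hn₀⟩ := hF.exists_near_of_upperTwo (wit_upperTwo n r hr') hε
    obtain ⟨y', hy'F, hy'⟩ := hn₀ n₀ le_rfl
    refine ⟨lp.single 2 n (wit_cv n (n₀ :: r) (hr' n₀)), y', hy'F, hy', ?_, ?_⟩
    · rw [wit_norm_single, wit_norm_cv]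
      exact one_le_norm_cv PotentialModel.global (n₀ :: r) (by simp)
    · refine ⟨n₀ :: r, hr' n₀, by simp [hlen], ?_⟩
      rw [wit_chain_cons n n₀ r (hr' n₀) hr, lp.single_add]

/-- Each block is separable. -/
theorem wit_blk_separable (n : ℕ) : TopologicalSpace.SeparableSpace ↥(blk n) := by
  have h1 : TopologicalSpace.IsSeparable
      (coordVector PotentialModel.global '' {s : List ℕ | s.length ≤ n + 1}) :=
    ((Set.to_countable _).image _).isSeparable
  have h2 : TopologicalSpace.IsSeparable
      ((blk n : Submodule ℝ (lp (fun _ : PotentialTest PotentialModel.global => ℝ) ⊤)) :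
        Set (lp (fun _ : PotentialTest PotentialModel.global => ℝ) ⊤)) := by
    have h3 := (h1.span (R := ℝ)).closure
    simpa [blk, Submodule.topologicalClosure_coe] using h3
  exact h2.separableSpace

theorem wit_separable : TopologicalSpace.SeparableSpace WitT := by
  have hsepn : ∀ n, TopologicalSpace.SeparableSpace ↥(blk n) := wit_blk_separable
  -- countable dense subsets of the blocks
  choose D hDc hDd using fun n : ℕ => TopologicalSpace.exists_countable_dense ↥(blk n)
  let T : Set WitT := ⋃ n : ℕ, (fun a : ↥(blk n) => (lp.single 2 n a : WitT)) '' D n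
  have hT : T.Countable := Set.countable_iUnion (fun n => (hDc n).image _)
  let M : Submodule ℝ WitT := (Submodule.span ℝ T).topologicalClosure
  have hMclosed : IsClosed (M : Set WitT) := Submodule.isClosed_topologicalClosure _
  have hTM : T ⊆ (M : Set WitT) := fun x hx =>
    Submodule.le_topologicalClosure _ (Submodule.subset_span hx)
  -- every embedded block element lies in `M`
  have hsingle : ∀ (n : ℕ) (a : ↥(blk n)), (lp.single 2 n a : WitT) ∈ M := by
    intro n a
    have hcont : Continuous (fun a : ↥(blk n) => (lp.single 2 n a : WitT)) :=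
      (lp.isometry_single (E := fun n : ℕ => ↥(blk n)) (p := 2) n).continuous
    have ha : a ∈ closure (D n) := (hDd n) a
    have h1 : (lp.single 2 n a : WitT) ∈
        closure ((fun a : ↥(blk n) => (lp.single 2 n a : WitT)) '' D n) :=
      image_closure_subset_closure_image hcont ⟨a, ha, rfl⟩
    have h2 : (fun a : ↥(blk n) => (lp.single 2 n a : WitT)) '' D n ⊆ (M : Set WitT) :=
      fun x hx => hTM (Set.mem_iUnion.2 ⟨n, hx⟩)
    exact (closure_minimal h2 hMclosed) h1
  -- hence everything lies in `M`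
  have hall : ∀ x : WitT, x ∈ M := by
    intro x
    have hsum := lp.hasSum_single (E := fun n : ℕ => ↥(blk n)) (p := 2) (by norm_num) x
    refine hMclosed.mem_of_tendsto hsum (Filter.Eventually.of_forall (fun s => ?_))
    exact M.sum_mem (fun n _ => hsingle n (x n))
  have hsep : TopologicalSpace.IsSeparable (Set.univ : Set WitT) := by
    have h3 := (hT.isSeparable.span (R := ℝ)).closure
    refine h3.mono (fun x _ => ?_)
    exact hall x
  exact TopologicalSpace.isSeparable_univ_iff.1 hsep

end Crest.Agent.S0166Lib
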