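import Crest.Agent.AsyLib.Basic
import Crest.Agent.PotLib.Defs

/-!
The witness of S0166: the `ℓ₂`-sum of the blocks `blk n`, where `blk n` is the closed span, in the
global tree potential space, of the coordinate vectors of the vertices of depth at most `n + 1`.
-/

set_option autoImplicit false

namespace Crest.Agent.S0166Lib

open scoped ENNReal
open Crest.AnalysisR Crest.AnalysisR.TreePotential Crest.Agent.AsyLib

/-- Block `n`: closed span of the coordinate vectors `coordVector .global s`, `s.length ≤ n + 1`. -/
noncomputable def blk (n : ℕ) :
    Submodule ℝ (lp (fun _ : PotentialTest PotentialModel.global => ℝ) ⊤) :=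
  (Submodule.span ℝ
    (coordVector PotentialModel.global '' {s : List ℕ | s.length ≤ n + 1})).topologicalClosure

instance blk_complete (n : ℕ) : CompleteSpace ↥(blk n) :=
  (Submodule.isClosed_topologicalClosure _).completeSpace_coe

/-- The underlying type of the witness: the `ℓ₂`-sum of the blocks. -/
abbrev WitT : Type := ↥(lp (fun n : ℕ => ↥(blk n)) 2)

/-- The witness space of S0166. -/
noncomputable def Wit : RealBanach := mkBanach WitT

end Crest.Agent.S0166Lib
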